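import Mathlib
import Vale.Agent.Lib.P066.FourLadder

namespace Vale.Agent.Results.P066.AllGraphsFourVariables

open Vale.Agent.Lib.P066

/-- For every natural unit interval graph (forward-degree list `d`: vertex `i` is adjacent to
`i + 1, …, i + d_i`), without any further hypothesis, the chromatic quasisymmetric function in
the four variables `x_1, x_2, x_3, x_4` is a polynomial in the elementary symmetric polynomials
`e_1, e_2, e_3, e_4` of these variables with coefficients in `ℕ[q]`. -/
theorem result (d : List ℕ) (hH : IsHess d) :
    ∃ F : MvPolynomial (Fin 4) (Polynomial ℕ), chromQSym 4 d = evFour F :=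
  epos_four d hH

end Vale.Agent.Results.P066.AllGraphsFourVariables
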