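import Mathlib
import Vale.Agent.Lib.P066.Ladder

namespace Vale.Agent.Results.P066.BandwidthTwo

open Vale.Agent.Lib.P066

/-- Let `d` be the forward-degree list of a natural unit interval graph (vertex `i` is adjacent
to `i + 1, …, i + d_i`). If every vertex has at most two later neighbours (`d_i ≤ 2` for all
`i`, i.e. `h(i) ≤ i + 2`; equivalently the graph has no clique on four vertices), then the
chromatic quasisymmetric function of the graph is a polynomial in the elementary symmetric
functions with coefficients in `ℕ[q]`. -/
theorem result (d : List ℕ) (hH : IsHess d) (h2 : ∀ a ∈ d, a ≤ 2) :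
    ∃ F : MvPolynomial ℕ (Polynomial ℕ), ∀ N : ℕ, chromQSym N d = evE N F :=
  epos_band2 d hH h2

end Vale.Agent.Results.P066.BandwidthTwo
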