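import Mathlib
import Vale.Agent.Lib.P066.Unified

namespace Vale.Agent.Results.P066.BlockwiseCliqueOrK4Free

open Vale.Agent.Lib.P066

/-- Let `d` be the forward-degree list of a natural unit interval graph (vertex `i` is adjacent
to `i + 1, …, i + d_i`), and call a vertex `c` a separator if no edge passes over it
(`Sep d c`). Suppose that for any two consecutive separators `c < c'` either the vertices
strictly between `c` and `c'` are pairwise adjacent, or every vertex `i` with `c ≤ i < c'` has
at most two later neighbours. Then the chromatic quasisymmetric function of the graph is a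
polynomial in the elementary symmetric functions with coefficients in `ℕ[q]`. -/
theorem result (d : List ℕ) (hH : IsHess d)
    (hB : ∀ c c', c < c' → c' < d.length → Sep d c → Sep d c' →
      (∀ e, c < e → e < c' → ¬ Sep d e) →
      (∀ a b, c < a → a < b → b < c' → b ≤ a + d.getD a 0) ∨
      (∀ i, c ≤ i → i < c' → d.getD i 0 ≤ 2)) :
    ∃ F : MvPolynomial ℕ (Polynomial ℕ), ∀ N : ℕ, chromQSym N d = evE N F :=
  epos_blockwise d hH hB

end Vale.Agent.Results.P066.BlockwiseCliqueOrK4Free
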