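import Mathlib
import Vale.Agent.Lib.P066.Final

namespace Vale.Agent.Results.P066.CutSeparatedGraphs

open Vale.Agent.Lib.P066

/-- Let `d` be the forward-degree list of a natural unit interval graph (vertex `i` is adjacent
to `i + 1, …, i + d_i`). If any two non-adjacent vertices `a < b` have a vertex `c` with
`a ≤ c ≤ b` over which no edge passes, then the chromatic quasisymmetric function of the graph
is a polynomial in the elementary symmetric functions with coefficients in `ℕ[q]`. -/
theorem result (d : List ℕ) (hH : IsHess d)
    (hK : ∀ a b, a < b → b < d.length → a + d.getD a 0 < b →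
      ∃ c, a ≤ c ∧ c ≤ b ∧ ∀ i, i < c → i + d.getD i 0 ≤ c) :
    ∃ F : MvPolynomial ℕ (Polynomial ℕ), ∀ N : ℕ, chromQSym N d = evE N F :=
  epos_sep d hH hK

end Vale.Agent.Results.P066.CutSeparatedGraphs
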